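import Vale.Agent.Lib.P154.PChain.Tail
import Vale.Agent.Lib.P154.PChain.BT.H

set_option linter.all false

namespace Vale.Agent.Lib.P154.PChain.BT

open Vale.Agent.Lib.P154 Vale.Agent.Lib.P154.Neg Vale.Agent.Lib.P154.Chain

/-- the mean of the offspring -/
noncomputable def ds : ℝ := 52367 / 10000

/-- the size of the eigenvalue -/
noncomputable def ts : ℝ := 11 / 25

theorem law_ok : LawOK (poissonLaw ds) g wp := by
  have h := lawOK_poisson (g := g) (wp := wp) (a := 52367) (b := 10000) (Un := 188048517298410) (Ud := 1000000000000) (by decide +kernel) (by decide +kernel) (by decide +kernel)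
    (by decide +kernel) (by decide +kernel) (by decide +kernel) (by decide +kernel) (by decide +kernel) (by decide +kernel)
  have e : (((52367 : ℕ) : ℝ) / ((10000 : ℕ) : ℝ)) = ds := by
    unfold ds
    norm_num
  rw [e] at h
  exact h

theorem inv_0 : PInv (poissonLaw ds) g l0 0 S0.cp0 := by
  rw [S0.start_ok]
  exact pinv_start S0.check_ok

theorem inv_r0_0 : PInv (poissonLaw ds) g l0 3 S0.rc0 := by
  have h := inv_runP (n := 0) (k := 3) S0.check_ok law_ok inv_0
  rw [S0.run_ok0] at h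
  exact h

theorem inv_s1 : PInv (poissonLaw ds) g l0 3 S1.cp0 := by
  have h : S1.cp0 = S0.rc0 := by
    decide +kernel
  rw [h]
  exact inv_r0_0

theorem inv_r1_0 : PInv (poissonLaw ds) g l1 4 S1.rc0 := by
  have h := inv_run1P (n := 3) S1.check_ok law_ok inv_s1
  rw [S1.run_ok0] at h
  exact h

theorem inv_s2 : PInv (poissonLaw ds) g l1 4 S2.cp0 := by
  have h : S2.cp0 = S1.rc0 := by
    decide +kernel
  rw [h]
  exact inv_r1_0

theorem inv_r2_0 : PInv (poissonLaw ds) g l1 7 S2.rc0 := by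
  have h := inv_runP (n := 4) (k := 3) S2.check_ok law_ok inv_s2
  rw [S2.run_ok0] at h
  exact h

theorem inv_s3 : PInv (poissonLaw ds) g l1 7 S3.cp0 := by
  have h : S3.cp0 = S2.rc0 := by
    decide +kernel
  rw [h]
  exact inv_r2_0

theorem inv_r3_0 : PInv (poissonLaw ds) g l2 8 S3.rc0 := by
  have h := inv_run1P (n := 7) S3.check_ok law_ok inv_s3
  rw [S3.run_ok0] at h
  exact h

theorem inv_s4 : PInv (poissonLaw ds) g l2 8 S4.cp0 := by
  have h : S4.cp0 = S3.rc0 := by
    decide +kernel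
  rw [h]
  exact inv_r3_0

theorem inv_r4_0 : PInv (poissonLaw ds) g l2 12 S4.rc0 := by
  have h := inv_runP (n := 8) (k := 4) S4.check_ok law_ok inv_s4
  rw [S4.run_ok0] at h
  exact h

theorem inv_r4_1 : PInv (poissonLaw ds) g l2 16 S4.rc1 := by
  have h := inv_runP (n := 12) (k := 4) S4.check_ok law_ok inv_r4_0
  rw [S4.run_ok1] at h
  exact h

theorem inv_r4_2 : PInv (poissonLaw ds) g l2 19 S4.rc2 := by
  have h := inv_runP (n := 16) (k := 3) S4.check_ok law_ok inv_r4_1
  rw [S4.run_ok2] at h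
  exact h

theorem inv_s5 : PInv (poissonLaw ds) g l2 19 S5.cp0 := by
  have h : S5.cp0 = S4.rc2 := by
    decide +kernel
  rw [h]
  exact inv_r4_2

theorem inv_r5_0 : PInv (poissonLaw ds) g l3 20 S5.rc0 := by
  have h := inv_run1P (n := 19) S5.check_ok law_ok inv_s5
  rw [S5.run_ok0] at h
  exact h

theorem inv_s6 : PInv (poissonLaw ds) g l3 20 S6.cp0 := by
  have h : S6.cp0 = S5.rc0 := by
    decide +kernel
  rw [h]
  exact inv_r5_0

theorem inv_r6_0 : PInv (poissonLaw ds) g l3 23 S6.rc0 := by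
  have h := inv_runP (n := 20) (k := 3) S6.check_ok law_ok inv_s6
  rw [S6.run_ok0] at h
  exact h

theorem inv_r6_1 : PInv (poissonLaw ds) g l3 26 S6.rc1 := by
  have h := inv_runP (n := 23) (k := 3) S6.check_ok law_ok inv_r6_0
  rw [S6.run_ok1] at h
  exact h

theorem inv_r6_2 : PInv (poissonLaw ds) g l3 29 S6.rc2 := by
  have h := inv_runP (n := 26) (k := 3) S6.check_ok law_ok inv_r6_1
  rw [S6.run_ok2] at h
  exact h

theorem inv_r6_3 : PInv (poissonLaw ds) g l3 32 S6.rc3 := by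
  have h := inv_runP (n := 29) (k := 3) S6.check_ok law_ok inv_r6_2
  rw [S6.run_ok3] at h
  exact h

theorem inv_r6_4 : PInv (poissonLaw ds) g l3 35 S6.rc4 := by
  have h := inv_runP (n := 32) (k := 3) S6.check_ok law_ok inv_r6_3
  rw [S6.run_ok4] at h
  exact h

theorem inv_r6_5 : PInv (poissonLaw ds) g l3 38 S6.rc5 := by
  have h := inv_runP (n := 35) (k := 3) S6.check_ok law_ok inv_r6_4
  rw [S6.run_ok5] at h
  exact h

theorem inv_r6_6 : PInv (poissonLaw ds) g l3 42 S6.rc6 := by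
  have h := inv_runP (n := 38) (k := 4) S6.check_ok law_ok inv_r6_5
  rw [S6.run_ok6] at h
  exact h

theorem inv_r6_7 : PInv (poissonLaw ds) g l3 46 S6.rc7 := by
  have h := inv_runP (n := 42) (k := 4) S6.check_ok law_ok inv_r6_6
  rw [S6.run_ok7] at h
  exact h

theorem inv_r6_8 : PInv (poissonLaw ds) g l3 50 S6.rc8 := by
  have h := inv_runP (n := 46) (k := 4) S6.check_ok law_ok inv_r6_7
  rw [S6.run_ok8] at h
  exact h

theorem inv_r6_9 : PInv (poissonLaw ds) g l3 54 S6.rc9 := by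
  have h := inv_runP (n := 50) (k := 4) S6.check_ok law_ok inv_r6_8
  rw [S6.run_ok9] at h
  exact h

theorem inv_r6_10 : PInv (poissonLaw ds) g l3 57 S6.rc10 := by
  have h := inv_runP (n := 54) (k := 3) S6.check_ok law_ok inv_r6_9
  rw [S6.run_ok10] at h
  exact h

theorem inv_e : PInv (poissonLaw ds) g l3 57 S6.cp1 := by
  have h : S6.cp1 = S6.rc10 := by
    decide +kernel
  rw [h]
  exact inv_r6_10

theorem hand : ∃ A : FF, A.Good ∧ (∀ G, Sublin G → Symm G → PhiE (gwEx (poissonLaw ds) (lamOf g) (57 + 1)) G ≤ val A.F G)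
      ∧ InClass ((hp.kapN : ℝ) / hp.kapD) ((hp.bpN : ℝ) / hp.bpD) ((hp.bmN : ℝ) / hp.bmD) (famEx A.F)
          ((hp.Mn : ℝ) / hp.Md) ∧ famEx A.F I2cb ≤ ((9224 : ℕ) : ℝ) / ((10000000 : ℕ) : ℝ) :=
  handoffP S6.check_ok law_ok inv_e (by decide +kernel) (by decide +kernel) (by decide +kernel)
    (by decide +kernel) (by decide +kernel) S6.hand_ok

/-- what the chain gives -/
theorem box : BoxOK (52367 / 10000) (11 / 25) (52323 / 1000000) (206 / 100) (95 / 100) (1 / 1) (9224 / 10000000) := by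
  obtain ⟨A, h1, h2, h3, h4⟩ := hand
  have el : lamOf g = -((11 : ℝ) / 25) := by
    have e : lamOf g = -((g.ln : ℝ) / g.ld) := rfl
    rw [e]
    norm_num [g]
  have e1 : ((hp.kapN : ℝ) / hp.kapD) = 206 / 100 := by norm_num [hp]
  have e2 : ((hp.bpN : ℝ) / hp.bpD) = 95 / 100 := by norm_num [hp]
  have e3 : ((hp.bmN : ℝ) / hp.bmD) = 1 / 1 := by norm_num [hp]
  have e4 : ((hp.Mn : ℝ) / hp.Md) = 52323 / 1000000 := by norm_num [hp]
  have e5 : (((9224 : ℕ) : ℝ) / ((10000000 : ℕ) : ℝ)) = 9224 / 10000000 := by norm_num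
  rw [el] at h2
  rw [e1, e2, e3, e4] at h3
  rw [e5] at h4
  exact ⟨57 + 1, A, h1, h2, h3, h4⟩

end Vale.Agent.Lib.P154.PChain.BT
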